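import Mathlib

/-!
# An abstract non-differentiability criterion (support for P171)

`f` is a monotone real function, `mu'` a point.  If the left increments of `f` at `mu'` are at most
`dup * u`, and arbitrarily small right displacements satisfy a lower bound with a quadratic
penalty (the combination of an Ekeland inequality with a Lebowitz-Penrose type upper bound), and
`V / 2 * dup ^ 2 < clow`, then `f` is not differentiable at `mu'`.
-/

namespace Vale.Agent.H50.P171

open Filter Topology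

/-- Small increments of a function that is differentiable at `x`: for every `δ > 0` there is a
radius `r > 0` with `|f (x + h) - f x - h * f'| ≤ δ * |h|` for `|h| < r`. -/
theorem kink_small_increments (f : ℝ → ℝ) (x f' : ℝ) (hf : HasDerivAt f f' x) (δ : ℝ)
    (hδ : 0 < δ) : ∃ r : ℝ, 0 < r ∧ ∀ h : ℝ, |h| < r → |f (x + h) - f x - h * f'| ≤ δ * |h| := by
  have h1 := (hasDerivAt_iff_isLittleO_nhds_zero.mp hf).def hδ
  obtain ⟨r, hr, hball⟩ := Metric.eventually_nhds_iff.mp h1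
  refine ⟨r, hr, fun h hh => ?_⟩
  have h2 := hball (y := h) (by simpa [Real.dist_eq] using hh)
  simpa [Real.norm_eq_abs, smul_eq_mul] using h2

/-- The abstract kink criterion. -/
theorem not_differentiableAt_of_increments (f : ℝ → ℝ) (mu' V clow dup : ℝ) (hV : 0 < V)
    (hdup : 0 ≤ dup) (hmono : Monotone f)
    (hE1 : ∀ u, 0 < u → f mu' - f (mu' - u) ≤ dup * u)
    (hH : ∀ u0, 0 < u0 → ∀ eps, 0 < eps → ∃ sig d : ℝ, 0 < sig ∧ 0 ≤ d ∧
      V * ((1 + eps) * sig) * d ≤ u0 ∧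
      clow * sig ≤ f (mu' + V * ((1 + eps) * sig) * d) - f mu'
        - V * ((1 + eps) * sig) / 2 * d ^ 2 + eps * sig)
    (hnum : V / 2 * dup ^ 2 < clow) : ¬ DifferentiableAt ℝ f mu' := by
  intro hdiff
  obtain ⟨d', hd'⟩ : ∃ d', HasDerivAt f d' mu' := ⟨_, hdiff.hasDerivAt⟩
  -- the derivative is nonnegative
  have hd0 : 0 ≤ d' := by
    by_contra hneg
    rw [not_le] at hneg
    obtain ⟨r, hr, hsmall⟩ := kink_small_increments f mu' d' hd' (-d' / 2) (by linarith)
    have h := hsmall (r / 2) (by rw [abs_of_pos (by linarith)]; linarith)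
    rw [abs_of_pos (by linarith : (0 : ℝ) < r / 2)] at h
    have hm : f mu' ≤ f (mu' + r / 2) := hmono (by linarith)
    have h' := (abs_le.mp h).2
    nlinarith
  -- the derivative is at most `dup`
  have hdle : d' ≤ dup := by
    by_contra hgt
    rw [not_le] at hgt
    obtain ⟨r, hr, hsmall⟩ := kink_small_increments f mu' d' hd' ((d' - dup) / 2) (by linarith)
    have h := hsmall (-(r / 2)) (by rw [abs_neg, abs_of_pos (by linarith)]; linarith)
    rw [abs_neg, abs_of_pos (by linarith : (0 : ℝ) < r / 2)] at h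
    have hE := hE1 (r / 2) (by linarith)
    have h' := (abs_le.mp h).2
    have e : mu' + -(r / 2) = mu' - r / 2 := by ring
    rw [e] at h'
    nlinarith
  -- choose `δ` and `eps` small
  have hgap : 0 < clow - V / 2 * d' ^ 2 := by
    have : d' ^ 2 ≤ dup ^ 2 := by nlinarith
    nlinarith
  obtain ⟨δ, hδ, eps, heps, hsmallgap⟩ : ∃ δ : ℝ, 0 < δ ∧ ∃ eps : ℝ, 0 < eps ∧
      V * (1 + eps) / 2 * (d' + δ) ^ 2 + eps < clow := by
    have hcont : ContinuousAt (fun p : ℝ × ℝ => V * (1 + p.2) / 2 * (d' + p.1) ^ 2 + p.2)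
        ((0 : ℝ), (0 : ℝ)) := by fun_prop
    have hlt : (fun p : ℝ × ℝ => V * (1 + p.2) / 2 * (d' + p.1) ^ 2 + p.2) ((0 : ℝ), (0 : ℝ))
        < clow := by
      simp only [add_zero, mul_one]
      linarith
    have hev := hcont.eventually (gt_mem_nhds hlt)
    obtain ⟨r, hr, hball⟩ := Metric.eventually_nhds_iff.mp hev
    refine ⟨r / 2, by linarith, r / 2, by linarith, ?_⟩
    have hmem : dist ((r / 2, r / 2) : ℝ × ℝ) ((0 : ℝ), (0 : ℝ)) < r := by
      rw [Prod.dist_eq]
      simp only [Real.dist_eq, sub_zero]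
      rw [abs_of_pos (by linarith : (0 : ℝ) < r / 2)]
      simp
      linarith
    exact hball hmem
  obtain ⟨r, hr, hsmall⟩ := kink_small_increments f mu' d' hd' δ hδ
  obtain ⟨sig, d, hsig, hd, hu, hineq⟩ := hH (r / 2) (by linarith) eps heps
  set u : ℝ := V * ((1 + eps) * sig) * d with hu_def
  have hu0 : 0 ≤ u := by positivity
  have h := hsmall u (by rw [abs_of_nonneg hu0]; linarith)
  rw [abs_of_nonneg hu0] at h
  have h' := (abs_le.mp h).2
  -- `f (mu' + u) - f mu' ≤ (d' + δ) * u`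
  have hstep : f (mu' + u) - f mu' ≤ (d' + δ) * u := by nlinarith
  -- `(d' + δ) * u - V σ' / 2 * d ^ 2 ≤ V σ' / 2 * (d' + δ) ^ 2`
  have hsq : (d' + δ) * u - V * ((1 + eps) * sig) / 2 * d ^ 2
      ≤ V * ((1 + eps) * sig) / 2 * (d' + δ) ^ 2 := by
    have hpos : 0 ≤ V * ((1 + eps) * sig) / 2 := by positivity
    have : V * ((1 + eps) * sig) / 2 * (d' + δ) ^ 2
        - ((d' + δ) * u - V * ((1 + eps) * sig) / 2 * d ^ 2)
        = V * ((1 + eps) * sig) / 2 * (d' + δ - d) ^ 2 := by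
      rw [hu_def]
      ring
    nlinarith [mul_nonneg hpos (sq_nonneg (d' + δ - d))]
  have hfin : clow * sig ≤ (V * (1 + eps) / 2 * (d' + δ) ^ 2 + eps) * sig := by
    have : V * ((1 + eps) * sig) / 2 * (d' + δ) ^ 2 + eps * sig
        = (V * (1 + eps) / 2 * (d' + δ) ^ 2 + eps) * sig := by ring
    linarith
  have := le_of_mul_le_mul_right hfin hsig
  linarith

/-- The criterion with an explicit bound `d ≤ d1 sig`, `sig * d1 sig → 0` as `sig → 0+`. -/
theorem not_differentiableAt_of_d1 (f : ℝ → ℝ) (mu' V clow dup sig0 : ℝ) (hV : 0 < V)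
    (hdup : 0 ≤ dup) (hsig0 : 0 < sig0) (hmono : Monotone f)
    (hE1 : ∀ u, 0 < u → f mu' - f (mu' - u) ≤ dup * u)
    (d1 : ℝ → ℝ) (hd1 : Tendsto (fun sig => sig * d1 sig) (𝓝[>] 0) (𝓝 0))
    (hH5 : ∀ sig, 0 < sig → sig ≤ sig0 → ∀ eps, 0 < eps → ∃ d : ℝ, 0 ≤ d ∧ d ≤ d1 sig ∧
      clow * sig ≤ f (mu' + V * ((1 + eps) * sig) * d) - f mu'
        - V * ((1 + eps) * sig) / 2 * d ^ 2 + eps * sig)
    (hnum : V / 2 * dup ^ 2 < clow) : ¬ DifferentiableAt ℝ f mu' := by
  refine not_differentiableAt_of_increments f mu' V clow dup hV hdup hmono hE1 ?_ hnum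
  intro u0 hu0 eps heps
  -- choose `sig` small with `V (1 + eps) sig d1 sig ≤ u0`
  have hpos : 0 < u0 / (V * (1 + eps)) := by positivity
  have hev : ∀ᶠ sig in 𝓝[>] (0 : ℝ), sig * d1 sig < u0 / (V * (1 + eps)) :=
    hd1.eventually (gt_mem_nhds hpos)
  have hev2 : ∀ᶠ sig in 𝓝[>] (0 : ℝ), sig ≤ sig0 := by
    have : Set.Ioc (0 : ℝ) sig0 ∈ 𝓝[>] (0 : ℝ) := Ioc_mem_nhdsGT hsig0
    filter_upwards [this] with sig hs using hs.2
  have hev3 : ∀ᶠ sig in 𝓝[>] (0 : ℝ), 0 < sig := by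
    filter_upwards [self_mem_nhdsWithin] with sig hs using hs
  obtain ⟨sig, h1, h2, h3⟩ := (hev.and (hev2.and hev3)).exists
  obtain ⟨d, hd, hdle, hineq⟩ := hH5 sig h3 h2 eps heps
  refine ⟨sig, d, h3, hd, ?_, hineq⟩
  have hVe : 0 < V * (1 + eps) := by positivity
  have h4 : sig * d ≤ sig * d1 sig := mul_le_mul_of_nonneg_left hdle h3.le
  have h5 : V * (1 + eps) * (sig * d) ≤ V * (1 + eps) * (u0 / (V * (1 + eps))) :=
    mul_le_mul_of_nonneg_left (by linarith) hVe.le
  have h6 : V * (1 + eps) * (u0 / (V * (1 + eps))) = u0 := by field_simp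
  calc V * ((1 + eps) * sig) * d = V * (1 + eps) * (sig * d) := by ring
    _ ≤ u0 := by linarith

end Vale.Agent.H50.P171
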