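import Mathlib

/-!
# P171 moonshot, Route R: from the statement (H5) to the derivative form of the LP bound

Pure real analysis, Mathlib only, no project definitions.  `f` stands for `fun m => Fp m t`,
`Φ n σ` for `Fp μ (addAt t n σ)`; the hypothesis `hH` is verbatim the conclusion of `hfive`
(`Vale/Agent/H96/P171/LP/HFive.lean`) and the conclusion is verbatim that of `lp_deriv`
(`Vale/Agent/H96/P171/LP.lean`).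

Proof: from the derivative, `f (μ + u) - f μ ≤ (d' + ε₂) u` for `0 ≤ u ≤ δ`.  Choose
`ε₁, ε₂ ∈ (0,1]` with `(21/2)(1 + ε₁)(d' + ε₂)^2 + ε₁ ≤ (21/2) d'^2 + ε` and `σ ∈ (0,1]` with
`C0 sqrt σ ≤ δ`.  Then `Φ n σ ≤ f (μ + u) - u^2/(4 s) + ε₁ σ ≤ f μ + (d' + ε₂) u - u^2/(4 s) + ε₁ σ
≤ f μ + s (d' + ε₂)^2 + ε₁ σ ≤ f μ + σ ((21/2)(1 + ε₁)(d' + ε₂)^2 + ε₁)`.
-/

namespace Vale.Agent.H50.P171

/-- One-sided increment bound from a derivative. -/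
theorem lpr_increment (f : ℝ → ℝ) (μ d' : ℝ) (hd : HasDerivAt f d' μ) (ε₂ : ℝ) (hε₂ : 0 < ε₂) :
    ∃ δ : ℝ, 0 < δ ∧ ∀ u : ℝ, 0 ≤ u → u ≤ δ → f (μ + u) - f μ ≤ (d' + ε₂) * u := by
  have h1 := hasDerivAt_iff_isLittleO_nhds_zero.1 hd
  have h2 := h1.def hε₂
  obtain ⟨δ, hδ, hδ'⟩ := Metric.eventually_nhds_iff.1 h2
  refine ⟨δ / 2, by positivity, fun u hu0 hu => ?_⟩
  have h3 := hδ' (y := u) (by rw [Real.dist_eq, sub_zero, abs_of_nonneg hu0]; linarith)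
  rw [Real.norm_eq_abs, Real.norm_eq_abs, abs_of_nonneg hu0, smul_eq_mul] at h3
  have h4 := (abs_le.1 h3).2
  nlinarith

/-- The choice of the two small parameters. -/
theorem lpr_choice (d' ε : ℝ) (hε : 0 < ε) :
    ∃ ε₁ : ℝ, 0 < ε₁ ∧ ε₁ ≤ 1 ∧ ∃ ε₂ : ℝ, 0 < ε₂ ∧ ε₂ ≤ 1 ∧
      (21 / 2) * (1 + ε₁) * (d' + ε₂) ^ 2 + ε₁ ≤ (21 / 2) * d' ^ 2 + ε := by
  obtain ⟨a, ha⟩ : ∃ a : ℝ, a = |d'| := ⟨_, rfl⟩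
  have ha0 : 0 ≤ a := ha ▸ abs_nonneg d'
  have hda : d' ≤ a := ha ▸ le_abs_self d'
  have hsq : d' ^ 2 = a ^ 2 := by rw [ha, sq_abs]
  have hp1 : (0 : ℝ) < 2 * (21 / 2 * a ^ 2 + 1) := by positivity
  have hp2 : (0 : ℝ) < 42 * (2 * a + 1) := by positivity
  refine ⟨min 1 (ε / (2 * (21 / 2 * a ^ 2 + 1))), lt_min one_pos (div_pos hε hp1),
    min_le_left _ _, min 1 (ε / (42 * (2 * a + 1))), lt_min one_pos (div_pos hε hp2),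
    min_le_left _ _, ?_⟩
  obtain ⟨ε₁, hε₁⟩ : ∃ ε₁ : ℝ, ε₁ = min 1 (ε / (2 * (21 / 2 * a ^ 2 + 1))) := ⟨_, rfl⟩
  obtain ⟨ε₂, hε₂⟩ : ∃ ε₂ : ℝ, ε₂ = min 1 (ε / (42 * (2 * a + 1))) := ⟨_, rfl⟩
  rw [← hε₁, ← hε₂]
  have h10 : 0 < ε₁ := hε₁ ▸ lt_min one_pos (div_pos hε hp1)
  have h11 : ε₁ ≤ 1 := hε₁ ▸ min_le_left _ _
  have h12 : ε₁ * (2 * (21 / 2 * a ^ 2 + 1)) ≤ ε := by
    have h : ε₁ ≤ ε / (2 * (21 / 2 * a ^ 2 + 1)) := hε₁ ▸ min_le_right _ _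
    exact (le_div_iff₀ hp1).1 h
  have h20 : 0 < ε₂ := hε₂ ▸ lt_min one_pos (div_pos hε hp2)
  have h21 : ε₂ ≤ 1 := hε₂ ▸ min_le_left _ _
  have h22 : ε₂ * (42 * (2 * a + 1)) ≤ ε := by
    have h : ε₂ ≤ ε / (42 * (2 * a + 1)) := hε₂ ▸ min_le_right _ _
    exact (le_div_iff₀ hp2).1 h
  have hA : (d' + ε₂) ^ 2 ≤ d' ^ 2 + (2 * a + 1) * ε₂ := by
    have e1 : d' * ε₂ ≤ a * ε₂ := mul_le_mul_of_nonneg_right hda h20.le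
    have e2 : ε₂ * ε₂ ≤ 1 * ε₂ := mul_le_mul_of_nonneg_right h21 h20.le
    nlinarith
  have hB : (1 + ε₁) * (d' + ε₂) ^ 2 ≤ (1 + ε₁) * (d' ^ 2 + (2 * a + 1) * ε₂) :=
    mul_le_mul_of_nonneg_left hA (by linarith)
  have hC : (1 + ε₁) * ((2 * a + 1) * ε₂) ≤ 2 * ((2 * a + 1) * ε₂) :=
    mul_le_mul_of_nonneg_right (by linarith) (by positivity)
  have hD : ε₁ * d' ^ 2 = ε₁ * a ^ 2 := by rw [hsq]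
  nlinarith

/-- The choice of `σ`. -/
theorem lpr_sigma (C0 : ℝ) (hC0 : 0 ≤ C0) (δ : ℝ) (hδ : 0 < δ) :
    ∃ σ : ℝ, 0 < σ ∧ σ ≤ 1 ∧ C0 * Real.sqrt σ ≤ δ := by
  have hq : 0 < δ / (C0 + 1) := by positivity
  refine ⟨min 1 ((δ / (C0 + 1)) ^ 2), lt_min one_pos (by positivity), min_le_left _ _, ?_⟩
  have h1 : Real.sqrt (min 1 ((δ / (C0 + 1)) ^ 2)) ≤ δ / (C0 + 1) := by
    calc Real.sqrt (min 1 ((δ / (C0 + 1)) ^ 2)) ≤ Real.sqrt ((δ / (C0 + 1)) ^ 2) :=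
          Real.sqrt_le_sqrt (min_le_right _ _)
      _ = δ / (C0 + 1) := Real.sqrt_sq hq.le
  have h2 : C0 * (δ / (C0 + 1)) ≤ δ := by
    rw [← mul_div_assoc, div_le_iff₀ (by positivity)]
    nlinarith
  exact (mul_le_mul_of_nonneg_left h1 hC0).trans h2

/-- ROUTE R wrapper: the conclusion of `hfive` implies the conclusion of `lp_deriv`. -/
theorem lp_deriv_of_hfive (f : ℝ → ℝ) (Φ : ℕ → ℝ → ℝ) (μ d' : ℝ) (hd : HasDerivAt f d' μ)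
    (hH : ∃ C0 : ℝ, 0 ≤ C0 ∧ ∀ σ : ℝ, 0 < σ → σ ≤ 1 → ∀ ε : ℝ, 0 < ε → ε ≤ 1 →
      ∃ n0 : ℕ, ∀ n : ℕ, n0 ≤ n → ∃ u s : ℝ, 0 ≤ u ∧ u ≤ C0 * Real.sqrt σ ∧
        21 / 2 * σ ≤ s ∧ s ≤ 21 / 2 * σ * (1 + ε) ∧
        Φ n σ ≤ f (μ + u) - u ^ 2 / (4 * s) + ε * σ)
    (ε : ℝ) (hε : 0 < ε) :
    ∃ σ : ℝ, 0 < σ ∧ ∃ n0 : ℕ, ∀ n : ℕ, n0 ≤ n →
      Φ n σ ≤ f μ + σ * ((21 / 2) * d' ^ 2 + ε) := by
  obtain ⟨C0, hC0, hC⟩ := hH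
  obtain ⟨ε₁, hε₁0, hε₁1, ε₂, hε₂0, hε₂1, hchoice⟩ := lpr_choice d' ε hε
  obtain ⟨δ, hδ, hinc⟩ := lpr_increment f μ d' hd ε₂ hε₂0
  obtain ⟨σ, hσ0, hσ1, hσδ⟩ := lpr_sigma C0 hC0 δ hδ
  obtain ⟨n0, hn0⟩ := hC σ hσ0 hσ1 ε₁ hε₁0 hε₁1
  refine ⟨σ, hσ0, n0, fun n hn => ?_⟩
  obtain ⟨u, s, hu0, hu, hs1, hs2, hF⟩ := hn0 n hn
  have hs0 : 0 < s := by linarith
  have h1 := hinc u hu0 (hu.trans hσδ)
  have h3 : s * (d' + ε₂) ^ 2 - ((d' + ε₂) * u - u ^ 2 / (4 * s))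
      = (2 * s * (d' + ε₂) - u) ^ 2 / (4 * s) := by
    field_simp
    ring
  have h4 : 0 ≤ (2 * s * (d' + ε₂) - u) ^ 2 / (4 * s) := by positivity
  have h5 : s * (d' + ε₂) ^ 2 ≤ 21 / 2 * σ * (1 + ε₁) * (d' + ε₂) ^ 2 :=
    mul_le_mul_of_nonneg_right hs2 (sq_nonneg _)
  have h6 : σ * ((21 / 2) * (1 + ε₁) * (d' + ε₂) ^ 2 + ε₁) ≤ σ * ((21 / 2) * d' ^ 2 + ε) :=
    mul_le_mul_of_nonneg_left hchoice hσ0.le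
  nlinarith

end Vale.Agent.H50.P171
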